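import Vale.Agent.Lib.P235.Theta.GMain

/-!
# P235: generalized theta graphs embed in `ℓ₁` with distortion `3/2` (graph version)

`G` consists of `n` internally disjoint paths (arcs) from `s` to `t`, with arbitrary positive edge
lengths; the arcs are described by a layout (`IsTheta`): the inner vertex `x` lies on the arc
`path x`, and `pos x` is its distance from `s` measured along that arc.  The metric of `X` is the
shortest-path metric of `(G, ℓ)`.
-/

namespace Vale.Agent.Results.P235.A1_ThetaGraph

open Vale.Agent.Lib.P235

theorem result {X : Type} [Fintype X] [DecidableEq X] [MetricSpace X] {n : ℕ}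
    (G : SimpleGraph X) (ℓ : X → X → ℝ) (s t : X) (path : X → Fin n) (pos : X → ℝ)
    (L : Fin n → ℝ) (h : IsTheta G ℓ s t path pos L)
    (hd : ∀ x y, IsGLB (Set.range (fun p : G.Walk x y => walkLen ℓ p)) (dist x y)) :
    ∃ (m : ℕ) (f : X → Fin m → ℝ), ∀ x y,
      dist x y ≤ ∑ k, |f x k - f y k| ∧ ∑ k, |f x k - f y k| ≤ 3 / 2 * dist x y :=
  theta_graph_main h hd

end Vale.Agent.Results.P235.A1_ThetaGraph
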