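import Vale.Agent.Lib.P235.Levels

/-!
# P235: graphs with a vertex cover of size two embed in `ℓ₁` with distortion `3/2`

Every connected graph all of whose edges meet `{s, t}` (a subgraph of `K_{1,1,n}`, for instance
`K_{2,n}`), with arbitrary edge lengths, embeds in a finite-dimensional `ℓ₁` space with
distortion at most `3/2`.
-/

namespace Vale.Agent.Results.P235.VertexCoverTwo

open Vale.Agent.Lib.P235

/-- the length of a walk: the sum of the lengths `ℓ a b` of its steps `a → b` -/
def walkLen {X : Type} {G : SimpleGraph X} (ℓ : X → X → ℝ) : ∀ {x y : X}, G.Walk x y → ℝ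
  | _, _, SimpleGraph.Walk.nil => 0
  | x, _, SimpleGraph.Walk.cons (v := v) _ p => ℓ x v + walkLen ℓ p

theorem min_prop {X : Type} [MetricSpace X] (G : SimpleGraph X) (ℓ : X → X → ℝ)
    (hd : ∀ x y, IsGLB (Set.range (fun p : G.Walk x y => walkLen ℓ p)) (dist x y))
    (s t : X) (hcover : ∀ x y, G.Adj x y → x = s ∨ x = t ∨ y = s ∨ y = t)
    (x y : X) (hxy : x ≠ y) (hxs : x ≠ s) (hxt : x ≠ t) :
    dist x y = min (dist x s + dist s y) (dist x t + dist t y) := by
  apply le_antisymm
  · exact le_min (dist_triangle _ _ _) (dist_triangle _ _ _)
  · apply (hd x y).2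
    rintro _ ⟨p, rfl⟩
    show min (dist x s + dist s y) (dist x t + dist t y) ≤ walkLen ℓ p
    cases p with
    | nil => exact absurd rfl hxy
    | @cons _ v _ hadj q =>
      have h1 : dist x v ≤ ℓ x v := by
        have h := (hd x v).1 ⟨SimpleGraph.Walk.cons hadj SimpleGraph.Walk.nil, rfl⟩
        simpa [walkLen] using h
      have h2 : dist v y ≤ walkLen ℓ q := (hd v y).1 ⟨q, rfl⟩
      have h3 : walkLen ℓ (SimpleGraph.Walk.cons hadj q) = ℓ x v + walkLen ℓ q := rfl
      rw [h3]
      rcases hcover x v hadj with h | h | h | h
      · exact absurd h hxs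
      · exact absurd h hxt
      · subst h
        exact (min_le_left _ _).trans (by linarith)
      · subst h
        exact (min_le_right _ _).trans (by linarith)

theorem min_formula (D a b : ℝ) :
    min (a + b) (2 * D - a - b) =
      if (decide (a ≤ D / 2) = decide (b ≤ D / 2)) then min a (D - a) + min b (D - b)
      else 2 * (D / 2) - |min a (D - a) - min b (D - b)| := by
  by_cases ha : a ≤ D / 2 <;> by_cases hb : b ≤ D / 2
  · have hc : decide (a ≤ D / 2) = decide (b ≤ D / 2) := by simp [ha, hb]
    rw [if_pos hc, min_eq_left (by linarith : a ≤ D - a), min_eq_left (by linarith : b ≤ D - b),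
      min_eq_left (by linarith)]
  · have hc : ¬ (decide (a ≤ D / 2) = decide (b ≤ D / 2)) := by simp [ha, hb]
    have hb := not_le.mp hb
    rw [if_neg hc, min_eq_left (by linarith : a ≤ D - a),
      min_eq_right (by linarith : D - b ≤ b)]
    rcases le_total (a + b) D with h | h
    · rw [min_eq_left (by linarith), abs_of_nonpos (by linarith)]
      ring
    · rw [min_eq_right (by linarith), abs_of_nonneg (by linarith)]
      ring
  · have hc : ¬ (decide (a ≤ D / 2) = decide (b ≤ D / 2)) := by simp [ha, hb]
    have ha := not_le.mp ha
    rw [if_neg hc, min_eq_right (by linarith : D - a ≤ a),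
      min_eq_left (by linarith : b ≤ D - b)]
    rcases le_total (a + b) D with h | h
    · rw [min_eq_left (by linarith), abs_of_nonneg (by linarith)]
      ring
    · rw [min_eq_right (by linarith), abs_of_nonpos (by linarith)]
      ring
  · have hc : decide (a ≤ D / 2) = decide (b ≤ D / 2) := by simp [ha, hb]
    have ha := not_le.mp ha
    have hb := not_le.mp hb
    rw [if_pos hc, min_eq_right (by linarith : D - a ≤ a),
      min_eq_right (by linarith : D - b ≤ b), min_eq_right (by linarith)]
    ring

/-- **Graphs with a vertex cover of size at most two have `ℓ₁` distortion at most `3/2`.**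
`X` is a finite metric space whose metric is the shortest-path metric of the graph `G` with edge
lengths `ℓ` (the distance of `x` and `y` is the infimum of the lengths of the walks from `x` to
`y`), and every edge of `G` has an end in `{s, t}`. -/
theorem result {X : Type} [Fintype X] [MetricSpace X] (G : SimpleGraph X) (ℓ : X → X → ℝ)
    (hd : ∀ x y, IsGLB (Set.range (fun p : G.Walk x y => walkLen ℓ p)) (dist x y))
    (s t : X) (hcover : ∀ x y, G.Adj x y → x = s ∨ x = t ∨ y = s ∨ y = t) :
    ∃ (m : ℕ) (f : X → Fin m → ℝ), ∀ x y,
      dist x y ≤ ∑ k, |f x k - f y k| ∧ ∑ k, |f x k - f y k| ≤ 3 / 2 * dist x y := by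
  classical
  have hu0 : ∀ x : X, 0 ≤ (dist x s - dist x t + dist s t) / 2 := by
    intro x
    have := dist_triangle x s t
    linarith
  have huD : ∀ x : X, (dist x s - dist x t + dist s t) / 2 ≤ dist s t := by
    intro x
    have := dist_triangle x t s
    rw [dist_comm t s] at this
    linarith
  have hh0 : ∀ x : X, 0 ≤ (dist x s + dist x t - dist s t) / 2 := by
    intro x
    have := dist_triangle s x t
    rw [dist_comm s x] at this
    linarith
  have key : ∀ x y : X, x ≠ y → dist x y
      = (dist x s + dist x t - dist s t) / 2 + (dist y s + dist y t - dist s t) / 2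
        + min ((dist x s - dist x t + dist s t) / 2 + (dist y s - dist y t + dist s t) / 2)
          (2 * dist s t - (dist x s - dist x t + dist s t) / 2
            - (dist y s - dist y t + dist s t) / 2) := by
    intro x y hxy
    by_cases hxs : x = s
    · subst hxs
      have h1 := huD y
      rw [min_eq_left (by rw [dist_self]; linarith), dist_self, dist_comm x y]
      ring
    by_cases hxt : x = t
    · subst hxt
      have h1 := hu0 y
      rw [min_eq_right (by rw [dist_self, dist_comm x s]; linarith), dist_self, dist_comm x s,
        dist_comm x y]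
      ring
    rw [min_prop G ℓ hd s t hcover x y hxy hxs hxt, ← min_add_add_left, dist_comm s y,
      dist_comm t y]
    congr 1 <;> ring
  obtain ⟨V, ⟨ι, _, f, hf⟩, hV⟩ := struct (fun x y : X => dist x y)
    (fun x => decide ((dist x s - dist x t + dist s t) / 2 ≤ dist s t / 2)) (dist s t / 2)
    (fun x => min ((dist x s - dist x t + dist s t) / 2)
      (dist s t - (dist x s - dist x t + dist s t) / 2))
    (fun x => (dist x s + dist x t - dist s t) / 2) hh0
    (fun x => le_min (hu0 x) (by linarith [huD x]))
    (fun x => by
      rcases le_total ((dist x s - dist x t + dist s t) / 2) (dist s t / 2) with h | h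
      · exact (min_le_left _ _).trans h
      · exact (min_le_right _ _).trans (by linarith))
    (by positivity) (fun x => dist_self x)
    (fun x y hxy => by
      show dist x y = _
      rw [key x y hxy, min_formula])
  refine ⟨Fintype.card ι, fun x k => f x ((Fintype.equivFin ι).symm k), fun x y => ?_⟩
  have hsum : ∑ k, |f x ((Fintype.equivFin ι).symm k) - f y ((Fintype.equivFin ι).symm k)|
      = V x y := by
    rw [hf x y]
    exact Equiv.sum_comp (Fintype.equivFin ι).symm (fun i => |f x i - f y i|)
  rw [hsum]
  exact hV x y

end Vale.Agent.Results.P235.VertexCoverTwo
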