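import Vale.Agent.Lib.P235.K2n
import Vale.Agent.Lib.P235.LowerInt
import Vale.Agent.Results.P235.VertexCoverTwo

/-!
# P235: the optimal `L₁` distortion of the graphs with a vertex cover of size two is `3/2`
-/

namespace Vale.Agent.Results.P235.SharpVertexCoverTwo

open Vale.Agent.Lib.P235

theorem walkLen_eq {X : Type} {G : SimpleGraph X} (ℓ : X → X → ℝ) {x y : X} (p : G.Walk x y) :
    Vale.Agent.Results.P235.VertexCoverTwo.walkLen ℓ p = walkLen ℓ p := by
  induction p with
  | nil => rfl
  | @cons u v w hadj q ih =>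
    show ℓ u v + Vale.Agent.Results.P235.VertexCoverTwo.walkLen ℓ q = ℓ u v + walkLen ℓ q
    rw [ih]

/-- **The constant of the family of graphs with a vertex cover of size at most two is `3/2`.**
First part: every finite metric space that is the shortest-path metric of a graph all of whose
edges meet `{s, t}` embeds in a finite-dimensional `ℓ₁` space with distortion at most `3/2`.
Second part: for every `C < 3/2` some such graph, with all edge lengths equal to `1`, has no
embedding of distortion at most `C` in any space `L₁(Ω, μ)`. -/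
theorem result :
    (∀ (X : Type) [Fintype X] [MetricSpace X] (G : SimpleGraph X) (ℓ : X → X → ℝ),
      (∀ x y, IsGLB (Set.range (fun p : G.Walk x y => walkLen ℓ p)) (dist x y)) →
      ∀ s t : X, (∀ x y, G.Adj x y → x = s ∨ x = t ∨ y = s ∨ y = t) →
      ∃ (m : ℕ) (f : X → Fin m → ℝ), ∀ x y,
        dist x y ≤ ∑ k, |f x k - f y k| ∧ ∑ k, |f x k - f y k| ≤ 3 / 2 * dist x y) ∧
    (∀ C : ℝ, C < 3 / 2 →
      ∃ (X : Type) (_ : Fintype X) (_ : MetricSpace X) (G : SimpleGraph X) (s t : X),
        (∀ x y, IsGLB (Set.range (fun p : G.Walk x y => walkLen (fun _ _ => (1 : ℝ)) p))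
          (dist x y)) ∧
        (∀ x y, G.Adj x y → x = s ∨ x = t ∨ y = s ∨ y = t) ∧
        ¬ ∃ (Ω : Type) (_ : MeasurableSpace Ω) (μ : MeasureTheory.Measure Ω) (f : X → Ω → ℝ),
          (∀ x, MeasureTheory.Integrable (f x) μ) ∧ ∀ x y,
            dist x y ≤ ∫ ω, |f x ω - f y ω| ∂μ ∧ ∫ ω, |f x ω - f y ω| ∂μ ≤ C * dist x y) := by
  constructor
  · intro X _ _ G ℓ hd s t hcover
    refine Vale.Agent.Results.P235.VertexCoverTwo.result G ℓ (fun x y => ?_) s t hcover
    have h : (fun p : G.Walk x y => Vale.Agent.Results.P235.VertexCoverTwo.walkLen ℓ p)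
        = (fun p : G.Walk x y => walkLen ℓ p) := funext fun p => walkLen_eq ℓ p
    rw [h]
    exact hd x y
  · intro C hC
    obtain ⟨n, hn⟩ := exists_nat_gt ((4 - 2 * C) / (3 - 2 * C))
    refine ⟨Bool ⊕ Fin (n + 2), inferInstance, kMetric (n + 2),
      completeBipartiteGraph Bool (Fin (n + 2)), Sum.inl true, Sum.inl false,
      fun x y => kdist_isGLB (by omega) x y, k_cover, ?_⟩
    rintro ⟨Ω, _, μ, f, hint, hf⟩
    have h := K2n_lower_gen (n + 2) (by omega) (kdist (n := n + 2))
      (fun a b => ∫ ω, |f a ω - f b ω| ∂μ) (Sum.inl true) (Sum.inl false)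
      (fun i => Sum.inr i) (by simp [kdist]) (fun i j hij => by simp [kdist, hij])
      (fun i => by simp [kdist]) (fun i => by simp [kdist]) C
      (fun a b => MeasureTheory.integral_nonneg fun ω => abs_nonneg _) hf
      (poincare_int μ (n + 2) (f (Sum.inl true)) (f (Sum.inl false)) (fun i => f (Sum.inr i))
        (hint _) (hint _) (fun i => hint _))
    have hδ : 0 < 3 - 2 * C := by linarith
    have h1 : 4 - 2 * C < (n : ℝ) * (3 - 2 * C) := (div_lt_iff₀ hδ).mp hn
    have hN : ((n + 2 : ℕ) : ℝ) = (n : ℝ) + 2 := by push_cast; ring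
    rw [hN] at h
    have hn0 : (0 : ℝ) ≤ n := Nat.cast_nonneg n
    nlinarith

end Vale.Agent.Results.P235.SharpVertexCoverTwo
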