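import Vale.Agent.Lib.P235.Cover

/-!
# P235: graphs with a vertex cover of size three embed in `ℓ₁` with distortion `3`
-/

namespace Vale.Agent.Results.P235.VertexCoverThree

open Vale.Agent.Lib.P235

/-- `X` is a finite metric space whose metric is the shortest-path metric of the graph `G` with
edge lengths `ℓ`, and every edge of `G` has an end in `{s₁, s₂, s₃}` (for instance `G = K_{3,n}`).
Then `X` embeds in a finite-dimensional `ℓ₁` space with distortion at most `3`. -/
theorem result {X : Type} [Fintype X] [MetricSpace X] (G : SimpleGraph X)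
    (ℓ : X → X → ℝ)
    (hd : ∀ x y, IsGLB (Set.range (fun p : G.Walk x y => walkLen ℓ p)) (dist x y))
    (s₁ s₂ s₃ : X)
    (hcover : ∀ x y, G.Adj x y →
      (x = s₁ ∨ x = s₂ ∨ x = s₃) ∨ (y = s₁ ∨ y = s₂ ∨ y = s₃)) :
    ∃ (m : ℕ) (f : X → Fin m → ℝ), ∀ x y,
      dist x y ≤ ∑ k, |f x k - f y k| ∧ ∑ k, |f x k - f y k| ≤ 3 * dist x y := by
  classical
  have hc : ∀ x : X, 0 ≤ dist x s₁ + dist x s₂ + dist x s₃
      - (dist s₁ s₂ + dist s₁ s₃ + dist s₂ s₃) / 2 := by
    intro x
    have h1 := dist_triangle s₁ x s₂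
    have h2 := dist_triangle s₁ x s₃
    have h3 := dist_triangle s₂ x s₃
    rw [dist_comm s₁ x] at h1 h2
    rw [dist_comm s₂ x] at h3
    linarith
  obtain ⟨m₀, g, hg⟩ := (IsL1.priv (fun x : X => dist x s₁ + dist x s₂ + dist x s₃
      - (dist s₁ s₂ + dist s₁ s₃ + dist s₂ s₃) / 2) hc).toFin
  have hiso : ∀ a ∈ ({s₁, s₂, s₃} : Finset X), ∀ b ∈ ({s₁, s₂, s₃} : Finset X),
      dist a b = ∑ k, |g a k - g b k| := by
    intro a ha b hb
    rw [← hg a b]
    by_cases hab : a = b
    · subst hab
      simp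
    rw [if_neg hab]
    simp only [Finset.mem_insert, Finset.mem_singleton] at ha hb
    have c12 := dist_comm s₂ s₁
    have c13 := dist_comm s₃ s₁
    have c23 := dist_comm s₃ s₂
    rcases ha with rfl | rfl | rfl <;> rcases hb with rfl | rfl | rfl <;>
      first
        | exact absurd rfl hab
        | (simp only [dist_self]; linarith)
  have h := cover_reduction G ℓ hd {s₁, s₂, s₃} ⟨s₁, by simp⟩
    (fun x y hxy => by
      simp only [Finset.mem_insert, Finset.mem_singleton]
      exact hcover x y hxy) 1 zero_le_one m₀ g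
    (fun a ha b hb => by
      rw [← hiso a ha b hb]
      constructor <;> linarith)
  obtain ⟨m, f, hf⟩ := h
  refine ⟨m, f, fun x y => ⟨(hf x y).1, ?_⟩⟩
  have := (hf x y).2
  linarith

end Vale.Agent.Results.P235.VertexCoverThree
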