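import Vale.Agent.Results.P235.VertexCoverReduction
import Vale.Agent.Results.P235.VertexCoverThree
import Vale.Agent.Results.P235.SharpVertexCoverTwo

/-!
# P235: the `ℓ₁` distortion of graphs with a small vertex cover (combined statement)

(1) the reduction `c₁(G) ≤ 2 c₁(S) + 1` for every vertex cover `S`;
(2) `c₁(G) ≤ 3` for a vertex cover of size at most three;
(3) `c₁(G) ≤ 3/2` for a vertex cover of size at most two;
(4) the constant `3/2` in (3) is optimal.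
-/

namespace Vale.Agent.Results.P235.A_Combined

open Vale.Agent.Lib.P235

theorem result :
    (∀ (X : Type) [Fintype X] [MetricSpace X] (G : SimpleGraph X) (ℓ : X → X → ℝ),
      (∀ x y, IsGLB (Set.range (fun p : G.Walk x y => walkLen ℓ p)) (dist x y)) →
      ∀ S : Finset X, S.Nonempty → (∀ x y, G.Adj x y → x ∈ S ∨ y ∈ S) →
      ∀ C : ℝ, 0 ≤ C → ∀ (m₀ : ℕ) (g : X → Fin m₀ → ℝ),
      (∀ a ∈ S, ∀ b ∈ S, dist a b ≤ ∑ k, |g a k - g b k| ∧
        ∑ k, |g a k - g b k| ≤ C * dist a b) →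
      ∃ (m : ℕ) (f : X → Fin m → ℝ), ∀ x y,
        dist x y ≤ ∑ k, |f x k - f y k| ∧ ∑ k, |f x k - f y k| ≤ (2 * C + 1) * dist x y) ∧
    (∀ (X : Type) [Fintype X] [MetricSpace X] (G : SimpleGraph X) (ℓ : X → X → ℝ),
      (∀ x y, IsGLB (Set.range (fun p : G.Walk x y => walkLen ℓ p)) (dist x y)) →
      ∀ s₁ s₂ s₃ : X, (∀ x y, G.Adj x y →
        (x = s₁ ∨ x = s₂ ∨ x = s₃) ∨ (y = s₁ ∨ y = s₂ ∨ y = s₃)) →
      ∃ (m : ℕ) (f : X → Fin m → ℝ), ∀ x y,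
        dist x y ≤ ∑ k, |f x k - f y k| ∧ ∑ k, |f x k - f y k| ≤ 3 * dist x y) ∧
    (∀ (X : Type) [Fintype X] [MetricSpace X] (G : SimpleGraph X) (ℓ : X → X → ℝ),
      (∀ x y, IsGLB (Set.range (fun p : G.Walk x y => walkLen ℓ p)) (dist x y)) →
      ∀ s t : X, (∀ x y, G.Adj x y → x = s ∨ x = t ∨ y = s ∨ y = t) →
      ∃ (m : ℕ) (f : X → Fin m → ℝ), ∀ x y,
        dist x y ≤ ∑ k, |f x k - f y k| ∧ ∑ k, |f x k - f y k| ≤ 3 / 2 * dist x y) ∧
    (∀ C : ℝ, C < 3 / 2 →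
      ∃ (X : Type) (_ : Fintype X) (_ : MetricSpace X) (G : SimpleGraph X) (s t : X),
        (∀ x y, IsGLB (Set.range (fun p : G.Walk x y => walkLen (fun _ _ => (1 : ℝ)) p))
          (dist x y)) ∧
        (∀ x y, G.Adj x y → x = s ∨ x = t ∨ y = s ∨ y = t) ∧
        ¬ ∃ (Ω : Type) (_ : MeasurableSpace Ω) (μ : MeasureTheory.Measure Ω) (f : X → Ω → ℝ),
          (∀ x, MeasureTheory.Integrable (f x) μ) ∧ ∀ x y,
            dist x y ≤ ∫ ω, |f x ω - f y ω| ∂μ ∧ ∫ ω, |f x ω - f y ω| ∂μ ≤ C * dist x y) :=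
  ⟨fun _ _ _ G ℓ hd S hS hcover C hC m₀ g hg =>
      Vale.Agent.Results.P235.VertexCoverReduction.result G ℓ hd S hS hcover C hC m₀ g hg,
    fun _ _ _ G ℓ hd s₁ s₂ s₃ hcover =>
      Vale.Agent.Results.P235.VertexCoverThree.result G ℓ hd s₁ s₂ s₃ hcover,
    Vale.Agent.Results.P235.SharpVertexCoverTwo.result.1,
    Vale.Agent.Results.P235.SharpVertexCoverTwo.result.2⟩

end Vale.Agent.Results.P235.A_Combined
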