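import Vale.Agent.Lib.P235.Theta.Main

/-!
# P235: generalized theta graphs embed in `ℓ₁` with distortion `3/2`

A generalized theta graph consists of `n` internally disjoint paths from `s` to `t`, with arbitrary
edge lengths.  A vertex `x` is described by the path `path x` on which it lies and by its distance
`pos x` from `s` measured along that path; `L i` is the length of the `i`-th path and `D` is the
distance of `s` and `t`.  The hypotheses `hsame` and `hdiff` say that the metric of `X` is the
shortest-path metric: two points of one path are joined either along the path or the other way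
round through `s`, a shortest `s`-`t` connection and `t`; two points of different paths are joined
through `s` or through `t`.
-/

namespace Vale.Agent.Results.P235.ThetaGraphs

open Vale.Agent.Lib.P235

theorem result {X : Type} [Fintype X] [MetricSpace X] (n : ℕ) (path : X → Fin n)
    (L : Fin n → ℝ) (D : ℝ) (hD : 0 ≤ D) (hL : ∀ i, D ≤ L i) (pos : X → ℝ)
    (hpos : ∀ x, 0 ≤ pos x ∧ pos x ≤ L (path x))
    (hsame : ∀ x y, path x = path y →
      dist x y = min |pos x - pos y| (L (path x) + D - |pos x - pos y|))
    (hdiff : ∀ x y, path x ≠ path y →
      dist x y
        = min (min (pos x) (L (path x) - pos x + D) + min (pos y) (L (path y) - pos y + D))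
          (min (L (path x) - pos x) (pos x + D) + min (L (path y) - pos y) (pos y + D))) :
    ∃ (m : ℕ) (f : X → Fin m → ℝ), ∀ x y,
      dist x y ≤ ∑ k, |f x k - f y k| ∧ ∑ k, |f x k - f y k| ≤ 3 / 2 * dist x y :=
  theta_main (fun x y => dist x y) n path L D hD hL pos hpos hsame hdiff

end Vale.Agent.Results.P235.ThetaGraphs
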