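import Vale.Agent.Results.P235.VertexCoverReduction
import Vale.Agent.Results.P235.SharpVertexCoverTwo
import Vale.Agent.Results.P235.ThetaGraphs

/-!
# P235: `ℓ₁` distortion of theta graphs and of graphs with a small vertex cover (combined)

(1) generalized theta graphs (subdivisions of `K_{2,n}`, all edge lengths): distortion `3/2`;
(2) graphs with a vertex cover of size at most two: distortion `3/2`;
(3) the constant `3/2` is optimal in (1) and (2);
(4) the reduction `c₁(G) ≤ 2 c₁(S) + 1` for every vertex cover `S`.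
-/

namespace Vale.Agent.Results.P235.A_CombinedTheta

open Vale.Agent.Lib.P235

theorem result :
    (∀ (X : Type) [Fintype X] [MetricSpace X] (n : ℕ) (path : X → Fin n)
      (L : Fin n → ℝ) (D : ℝ), 0 ≤ D → (∀ i, D ≤ L i) → ∀ pos : X → ℝ,
      (∀ x, 0 ≤ pos x ∧ pos x ≤ L (path x)) →
      (∀ x y, path x = path y →
        dist x y = min |pos x - pos y| (L (path x) + D - |pos x - pos y|)) →
      (∀ x y, path x ≠ path y →
        dist x y
          = min (min (pos x) (L (path x) - pos x + D) + min (pos y) (L (path y) - pos y + D))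
            (min (L (path x) - pos x) (pos x + D) + min (L (path y) - pos y) (pos y + D))) →
      ∃ (m : ℕ) (f : X → Fin m → ℝ), ∀ x y,
        dist x y ≤ ∑ k, |f x k - f y k| ∧ ∑ k, |f x k - f y k| ≤ 3 / 2 * dist x y) ∧
    (∀ (X : Type) [Fintype X] [MetricSpace X] (G : SimpleGraph X) (ℓ : X → X → ℝ),
      (∀ x y, IsGLB (Set.range (fun p : G.Walk x y => walkLen ℓ p)) (dist x y)) →
      ∀ s t : X, (∀ x y, G.Adj x y → x = s ∨ x = t ∨ y = s ∨ y = t) →
      ∃ (m : ℕ) (f : X → Fin m → ℝ), ∀ x y,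
        dist x y ≤ ∑ k, |f x k - f y k| ∧ ∑ k, |f x k - f y k| ≤ 3 / 2 * dist x y) ∧
    (∀ C : ℝ, C < 3 / 2 →
      ∃ (X : Type) (_ : Fintype X) (_ : MetricSpace X) (G : SimpleGraph X) (s t : X),
        (∀ x y, IsGLB (Set.range (fun p : G.Walk x y => walkLen (fun _ _ => (1 : ℝ)) p))
          (dist x y)) ∧
        (∀ x y, G.Adj x y → x = s ∨ x = t ∨ y = s ∨ y = t) ∧
        ¬ ∃ (Ω : Type) (_ : MeasurableSpace Ω) (μ : MeasureTheory.Measure Ω) (f : X → Ω → ℝ),
          (∀ x, MeasureTheory.Integrable (f x) μ) ∧ ∀ x y,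
            dist x y ≤ ∫ ω, |f x ω - f y ω| ∂μ ∧ ∫ ω, |f x ω - f y ω| ∂μ ≤ C * dist x y) ∧
    (∀ (X : Type) [Fintype X] [MetricSpace X] (G : SimpleGraph X) (ℓ : X → X → ℝ),
      (∀ x y, IsGLB (Set.range (fun p : G.Walk x y => walkLen ℓ p)) (dist x y)) →
      ∀ S : Finset X, S.Nonempty → (∀ x y, G.Adj x y → x ∈ S ∨ y ∈ S) →
      ∀ C : ℝ, 0 ≤ C → ∀ (m₀ : ℕ) (g : X → Fin m₀ → ℝ),
      (∀ a ∈ S, ∀ b ∈ S, dist a b ≤ ∑ k, |g a k - g b k| ∧
        ∑ k, |g a k - g b k| ≤ C * dist a b) →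
      ∃ (m : ℕ) (f : X → Fin m → ℝ), ∀ x y,
        dist x y ≤ ∑ k, |f x k - f y k| ∧ ∑ k, |f x k - f y k| ≤ (2 * C + 1) * dist x y) :=
  ⟨fun _ _ _ n path L D hD hL pos hpos hsame hdiff =>
      Vale.Agent.Results.P235.ThetaGraphs.result n path L D hD hL pos hpos hsame hdiff,
    Vale.Agent.Results.P235.SharpVertexCoverTwo.result.1,
    Vale.Agent.Results.P235.SharpVertexCoverTwo.result.2,
    fun _ _ _ G ℓ hd S hS hcover C hC m₀ g hg =>
      Vale.Agent.Results.P235.VertexCoverReduction.result G ℓ hd S hS hcover C hC m₀ g hg⟩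

end Vale.Agent.Results.P235.A_CombinedTheta
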