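import Vale.Agent.Lib.P235.Cover

/-!
# P235: the `ℓ₁` distortion of a graph is at most `2 C + 1`, where `C` is the distortion of a
vertex cover with the induced metric
-/

namespace Vale.Agent.Results.P235.VertexCoverReduction

open Vale.Agent.Lib.P235

/-- `X` is a finite metric space whose metric is the shortest-path metric of the graph `G` with
edge lengths `ℓ`, and `S` is a nonempty vertex cover of `G`.  Every embedding `g` of `S` (with the
metric of `X`) in a finite-dimensional `ℓ₁` space with distortion `C` yields an embedding of `X`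
with distortion `2 C + 1`. -/
theorem result {X : Type} [Fintype X] [MetricSpace X] (G : SimpleGraph X)
    (ℓ : X → X → ℝ)
    (hd : ∀ x y, IsGLB (Set.range (fun p : G.Walk x y => walkLen ℓ p)) (dist x y))
    (S : Finset X) (hS : S.Nonempty) (hcover : ∀ x y, G.Adj x y → x ∈ S ∨ y ∈ S)
    (C : ℝ) (hC : 0 ≤ C) (m₀ : ℕ) (g : X → Fin m₀ → ℝ)
    (hg : ∀ a ∈ S, ∀ b ∈ S, dist a b ≤ ∑ k, |g a k - g b k| ∧
      ∑ k, |g a k - g b k| ≤ C * dist a b) :
    ∃ (m : ℕ) (f : X → Fin m → ℝ), ∀ x y,
      dist x y ≤ ∑ k, |f x k - f y k| ∧ ∑ k, |f x k - f y k| ≤ (2 * C + 1) * dist x y :=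
  cover_reduction G ℓ hd S hS hcover C hC m₀ g hg

end Vale.Agent.Results.P235.VertexCoverReduction
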